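import Mathlib

/-!
# Translates of a finite cube-like point set inside a convex body of large minimal width
-/

namespace Vale.Agent.P243

open scoped Pointwise

/-- If every width of the compact convex set `C` is at least `w`, then `C - C` contains the ball of
radius `w`.  (Otherwise separate `z` from the compact convex set `C - C` by a hyperplane.) -/
theorem mem_sub_of_norm_le {E : Type*} [NormedAddCommGroup E] [InnerProductSpace ℝ E]
    [FiniteDimensional ℝ E] (C : Set E) (hC : IsCompact C) (hCc : Convex ℝ C) (hCn : C.Nonempty)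
    (w : ℝ) (hw : ∀ v : E, ‖v‖ = 1 → ∃ a ∈ C, ∃ b ∈ C, w ≤ inner ℝ v (a - b))
    (z : E) (hz : ‖z‖ ≤ w) : ∃ a ∈ C, ∃ b ∈ C, z = a - b := by
  have : CompleteSpace E := FiniteDimensional.complete ℝ E
  by_contra hcon
  have hzD : z ∉ C - C := by
    intro h
    obtain ⟨a, ha, b, hb, hab⟩ := Set.mem_sub.mp h
    exact hcon ⟨a, ha, b, hb, hab.symm⟩
  have hcomp : IsCompact (C - C) := by
    rw [sub_eq_add_neg]
    exact hC.add hC.neg
  obtain ⟨f, u, hfu, huz⟩ :=
    geometric_hahn_banach_closed_point (hCc.sub hCc) hcomp.isClosed hzD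
  obtain ⟨c, hc⟩ := hCn
  have h0 : (0 : ℝ) < u := by
    have h1 := hfu (c - c) (Set.sub_mem_sub hc hc)
    rwa [sub_self, map_zero] at h1
  set g : E := (InnerProductSpace.toDual ℝ E).symm f with hg
  have hfg : ∀ x, f x = inner ℝ g x := fun x => (InnerProductSpace.toDual_symm_apply).symm
  have hgne : g ≠ 0 := by
    intro h
    have h1 := hfg z
    rw [h, inner_zero_left] at h1
    linarith
  have hgpos : 0 < ‖g‖ := norm_pos_iff.mpr hgne
  obtain ⟨a, ha, b, hb, hab⟩ := hw (‖g‖⁻¹ • g) (by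
    rw [norm_smul, norm_inv, norm_norm, inv_mul_cancel₀ hgpos.ne'])
  rw [inner_smul_left, ← hfg] at hab
  have h2 : f (a - b) < u := hfu _ (Set.sub_mem_sub ha hb)
  have h3 : f z ≤ ‖g‖ * ‖z‖ := by
    rw [hfg]
    exact real_inner_le_norm g z
  have h4 : ‖g‖ * w ≤ f (a - b) := by
    have h5 : ‖g‖ * w ≤ ‖g‖ * (‖g‖⁻¹ * f (a - b)) := by
      apply mul_le_mul_of_nonneg_left _ hgpos.le
      simpa using hab
    rwa [← mul_assoc, mul_inv_cancel₀ hgpos.ne', one_mul] at h5
  have h6 : ‖g‖ * ‖z‖ ≤ ‖g‖ * w := mul_le_mul_of_nonneg_left hz hgpos.le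
  linarith

theorem exists_translate_aux {E : Type*} [NormedAddCommGroup E] [InnerProductSpace ℝ E]
    [FiniteDimensional ℝ E] {ι : Type*} (z : ι → E) (t : Finset ι) :
    ∀ (C : Set E), IsCompact C → Convex ℝ C → C.Nonempty → ∀ w : ℝ,
      (∀ v : E, ‖v‖ = 1 → ∃ a ∈ C, ∃ b ∈ C, w ≤ inner ℝ v (a - b)) →
      ∑ i ∈ t, ‖z i‖ < w → ∃ x₀ : E, ∀ s : Finset ι, s ⊆ t → x₀ + ∑ i ∈ s, z i ∈ C := by
  classical
  induction t using Finset.induction_on with
  | empty =>
    intro C _ _ hCn w _ _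
    obtain ⟨c, hc⟩ := hCn
    refine ⟨c, fun s hs => ?_⟩
    rw [Finset.subset_empty.mp hs]
    simpa using hc
  | insert i₀ t hi₀ ih =>
    intro C hC hCc hCn w hw hz
    rw [Finset.sum_insert hi₀] at hz
    have hsum : 0 ≤ ∑ i ∈ t, ‖z i‖ := Finset.sum_nonneg fun i _ => norm_nonneg _
    have hn0 : 0 ≤ ‖z i₀‖ := norm_nonneg _
    have hwpos : 0 < w := by linarith
    obtain ⟨lam, hlam⟩ : ∃ lam, lam = ‖z i₀‖ / w := ⟨_, rfl⟩
    have hlam0 : 0 ≤ lam := by rw [hlam]; positivity
    have hlam1 : lam < 1 := by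
      rw [hlam, div_lt_one hwpos]
      linarith
    have hlamw : lam * w = ‖z i₀‖ := by
      rw [hlam]
      field_simp
    obtain ⟨a, ha, b, hb, hab⟩ : ∃ a ∈ C, ∃ b ∈ C, z i₀ = lam • (a - b) := by
      by_cases h0 : z i₀ = 0
      · obtain ⟨c, hc⟩ := hCn
        exact ⟨c, hc, c, hc, by simp [h0]⟩
      · have hnpos : 0 < ‖z i₀‖ := norm_pos_iff.mpr h0
        obtain ⟨a, ha, b, hb, hab⟩ := mem_sub_of_norm_le C hC hCc hCn w hw
          ((w / ‖z i₀‖) • z i₀) (by
            rw [norm_smul, Real.norm_eq_abs, abs_of_pos (by positivity)]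
            field_simp
            exact le_rfl)
        refine ⟨a, ha, b, hb, ?_⟩
        rw [← hab, smul_smul, hlam]
        have : ‖z i₀‖ / w * (w / ‖z i₀‖) = 1 := by field_simp
        rw [this, one_smul]
    set F : E → E := fun x => (1 - lam) • x + lam • b with hF
    have hFc : Continuous F := by
      rw [hF]
      fun_prop
    have hC'sub : ∀ x ∈ C, F x ∈ C := by
      intro x hx
      exact hCc hx hb (by linarith) hlam0 (by ring)
    have hC'add : ∀ x ∈ C, F x + z i₀ ∈ C := by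
      intro x hx
      have e : F x + z i₀ = (1 - lam) • x + lam • a := by
        rw [hF, hab]
        simp only
        module
      rw [e]
      exact hCc hx ha (by linarith) hlam0 (by ring)
    have hconv : Convex ℝ (F '' C) := by
      rintro x' ⟨x, hx, rfl⟩ y' ⟨y, hy, rfl⟩ α β hα hβ hαβ
      refine ⟨α • x + β • y, hCc hx hy hα hβ hαβ, ?_⟩
      obtain rfl : β = 1 - α := by linarith
      rw [hF]
      simp only
      module
    obtain ⟨x₀, hx₀⟩ := ih (F '' C) (hC.image hFc) hconv (hCn.image F) (w - ‖z i₀‖) (by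
      intro v hv
      obtain ⟨a', ha', b', hb', hab'⟩ := hw v hv
      refine ⟨F a', ⟨a', ha', rfl⟩, F b', ⟨b', hb', rfl⟩, ?_⟩
      have e : F a' - F b' = (1 - lam) • (a' - b') := by
        rw [hF]
        simp only
        module
      rw [e, inner_smul_right]
      have h1 : (1 - lam) * w ≤ (1 - lam) * inner ℝ v (a' - b') :=
        mul_le_mul_of_nonneg_left hab' (by linarith)
      have h2 : (1 - lam) * w = w - ‖z i₀‖ := by rw [← hlamw]; ring
      linarith) (by linarith)
    refine ⟨x₀, fun s hs => ?_⟩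
    by_cases his : i₀ ∈ s
    · have hs' : s.erase i₀ ⊆ t := by
        intro i hi
        have h1 := Finset.mem_erase.mp hi
        rcases Finset.mem_insert.mp (hs h1.2) with h2 | h2
        · exact absurd h2 h1.1
        · exact h2
      obtain ⟨x, hx, hxe⟩ := hx₀ _ hs'
      rw [← Finset.add_sum_erase s z his]
      have e : x₀ + (z i₀ + ∑ i ∈ s.erase i₀, z i) = F x + z i₀ := by
        rw [hxe]
        abel
      rw [e]
      exact hC'add x hx
    · have hs' : s ⊆ t := by
        intro i hi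
        rcases Finset.mem_insert.mp (hs hi) with h2 | h2
        · exact absurd (h2 ▸ hi) his
        · exact h2
      obtain ⟨x, hx, hxe⟩ := hx₀ _ hs'
      rw [← hxe]
      exact hC'sub x hx

/-- If every width of the compact convex set `C` is at least `w` and `∑ ‖z i‖ < w`, then some
translate of the set of all subset sums of the `z i` lies in `C`. -/
theorem exists_translate {E : Type*} [NormedAddCommGroup E] [InnerProductSpace ℝ E]
    [FiniteDimensional ℝ E] {ι : Type*} [Fintype ι] (C : Set E) (hC : IsCompact C)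
    (hCc : Convex ℝ C) (hCn : C.Nonempty) (w : ℝ)
    (hw : ∀ v : E, ‖v‖ = 1 → ∃ a ∈ C, ∃ b ∈ C, w ≤ inner ℝ v (a - b))
    (z : ι → E) (hz : ∑ i, ‖z i‖ < w) :
    ∃ x₀ : E, ∀ s : Finset ι, x₀ + ∑ i ∈ s, z i ∈ C := by
  obtain ⟨x₀, hx₀⟩ := exists_translate_aux z Finset.univ C hC hCc hCn w hw hz
  exact ⟨x₀, fun s => hx₀ s (Finset.subset_univ s)⟩

end Vale.Agent.P243
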