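import Vale.Agent.P243.Plank.BangLemma
import Vale.Agent.P243.Plank.Translates

/-!
# Bang's plank theorem
-/

namespace Vale.Agent.P243

/-- **Bang's plank theorem** (solution of Tarski's plank problem): if a compact convex set `C`, all
of whose widths are at least `w`, is covered by finitely many planks
`{x | |⟪v i, x⟫ - m i| ≤ h i}` (of width `2 h i`), then `w ≤ ∑ 2 h i`. -/
theorem bang_plank {E : Type*} [NormedAddCommGroup E] [InnerProductSpace ℝ E]
    [FiniteDimensional ℝ E] {ι : Type*} [Fintype ι] (C : Set E) (hC : IsCompact C)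
    (hCc : Convex ℝ C) (hCn : C.Nonempty) (w : ℝ)
    (hw : ∀ v : E, ‖v‖ = 1 → ∃ a ∈ C, ∃ b ∈ C, w ≤ inner ℝ v (a - b))
    (v : ι → E) (hv : ∀ i, ‖v i‖ = 1) (m h : ι → ℝ) (hh : ∀ i, 0 ≤ h i)
    (hcov : ∀ x ∈ C, ∃ i, |inner ℝ (v i) x - m i| ≤ h i) :
    w ≤ ∑ i, 2 * h i := by
  classical
  by_contra hlt
  rw [not_le] at hlt
  rcases isEmpty_or_nonempty ι with hι | hι
  · obtain ⟨x, hx⟩ := hCn
    obtain ⟨i, _⟩ := hcov x hx
    exact hι.elim i
  set n : ℝ := (Fintype.card ι : ℝ) with hn_def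
  have hn : 0 < n := by
    rw [hn_def]
    exact_mod_cast Fintype.card_pos
  set δ : ℝ := (w - ∑ i, 2 * h i) / (4 * n) with hδ_def
  have hδ : 0 < δ := div_pos (sub_pos.2 hlt) (by positivity)
  let h' : ι → ℝ := fun i => h i + δ
  have hh' : ∀ i, 0 ≤ h' i := fun i => add_nonneg (hh i) hδ.le
  have hsum : ∑ i, 2 * h' i < w := by
    have h1 : ∑ i, 2 * h' i = ∑ i, 2 * h i + 2 * (n * δ) := by
      simp only [h', mul_add, Finset.sum_add_distrib, Finset.sum_const, Finset.card_univ,
        nsmul_eq_mul]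
      ring
    have h2 : n * δ = (w - ∑ i, 2 * h i) / 4 := by
      rw [hδ_def]
      field_simp
    rw [h1, h2]
    linarith
  let z : ι → E := fun i => (2 * h' i) • v i
  have hz : ∑ i, ‖z i‖ < w := by
    have : ∀ i, ‖z i‖ = 2 * h' i := by
      intro i
      simp only [z]
      rw [norm_smul, hv i, mul_one, Real.norm_eq_abs, abs_of_nonneg (by linarith [hh' i])]
    rw [Finset.sum_congr rfl (fun i _ => this i)]
    exact hsum
  obtain ⟨x₀, hx₀⟩ := exists_translate C hC hCc hCn w hw z hz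
  set p : E := x₀ + ∑ i, h' i • v i with hp
  obtain ⟨ε, hε, hb⟩ := bang_lemma v hv h' (fun k => m k - inner ℝ (v k) p) hh'
  set y : E := ∑ i, (ε i * h' i) • v i with hy
  have hpy : p + y = x₀ + ∑ i ∈ Finset.univ.filter (fun i => ε i = 1), z i := by
    rw [Finset.sum_filter, hp, hy, add_assoc, ← Finset.sum_add_distrib]
    refine congrArg (fun t => x₀ + t) (Finset.sum_congr rfl (fun i _ => ?_))
    rcases hε i with h1 | h1
    · rw [if_pos h1, h1, ← add_smul]
      simp only [z]
      ring_nf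
    · have h2 : ¬ ε i = 1 := by
        rw [h1]
        norm_num
      rw [if_neg h2, h1, ← add_smul]
      ring_nf
      simp
  have hmem : p + y ∈ C := by
    rw [hpy]
    exact hx₀ _
  obtain ⟨k, hk⟩ := hcov _ hmem
  have h3 := hb k
  have h4 : inner ℝ (v k) y - (m k - inner ℝ (v k) p) = inner ℝ (v k) (p + y) - m k := by
    have h6 : inner ℝ (v k) (p + y) = inner ℝ (v k) p + inner ℝ (v k) y :=
      inner_add_right _ _ _
    rw [h6]
    ring
  rw [h4] at h3
  have h5 : h' k = h k + δ := rfl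
  linarith

end Vale.Agent.P243
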