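import Mathlib

/-!
# Bang's lemma
-/

namespace Vale.Agent.P243

/-- **Bang's lemma.** For unit vectors `v i`, half-widths `h i ≥ 0` and reals `m i` there are signs
`ε i = ± 1` such that the point `y = ∑ ε i h i v i` satisfies `|⟪v k, y⟫ - m k| ≥ h k` for all `k`.
(Maximise `‖∑ ε i h i v i‖ ^ 2 - 2 ∑ ε i h i m i` over the finitely many sign vectors and compare
with the vector obtained by flipping the sign `ε k`.) -/
theorem bang_lemma {E : Type*} [NormedAddCommGroup E] [InnerProductSpace ℝ E] {ι : Type*}
    [Fintype ι] (v : ι → E) (hv : ∀ i, ‖v i‖ = 1) (h m : ι → ℝ) (hh : ∀ i, 0 ≤ h i) :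
    ∃ ε : ι → ℝ, (∀ i, ε i = 1 ∨ ε i = -1) ∧
      ∀ k, h k ≤ |inner ℝ (v k) (∑ i, (ε i * h i) • v i) - m k| := by
  classical
  let sg : Bool → ℝ := fun b => if b then 1 else -1
  have hsg : ∀ b, sg b = 1 ∨ sg b = -1 := by
    intro b
    cases b
    · right; rfl
    · left; rfl
  have hsgn : ∀ b, sg (!b) = - sg b := by
    intro b
    cases b <;> simp [sg]
  let f : (ι → Bool) → ℝ := fun s =>
    ‖∑ i, (sg (s i) * h i) • v i‖ ^ 2 - 2 * ∑ i, sg (s i) * h i * m i
  obtain ⟨s, hs⟩ := Finite.exists_max f
  refine ⟨fun i => sg (s i), fun i => hsg (s i), fun k => ?_⟩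
  set y : E := ∑ i, (sg (s i) * h i) • v i with hy
  set T : ℝ := ∑ i, sg (s i) * h i * m i with hT
  set e : ℝ := sg (s k) with he
  have he2 : e * e = 1 := by
    rcases hsg (s k) with h1 | h1 <;> rw [he, h1] <;> norm_num
  let s' : ι → Bool := Function.update s k (!s k)
  have h1 : ∑ i, (sg (s' i) * h i) • v i = y - (2 * e * h k) • v k := by
    have : ∀ i, (sg (s' i) * h i) • v i
        = (sg (s i) * h i) • v i - (if i = k then (2 * e * h k) • v k else 0) := by
      intro i
      by_cases hik : i = k
      · subst hik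
        simp only [s', Function.update_self, if_true, hsgn]
        rw [← sub_smul]
        congr 1
        rw [he]
        ring
      · simp only [s', Function.update_of_ne hik, if_neg hik, sub_zero]
    rw [Finset.sum_congr rfl (fun i _ => this i), Finset.sum_sub_distrib,
      Finset.sum_ite_eq' Finset.univ k, if_pos (Finset.mem_univ k)]
  have h2 : ∑ i, sg (s' i) * h i * m i = T - 2 * e * h k * m k := by
    have : ∀ i, sg (s' i) * h i * m i
        = sg (s i) * h i * m i - (if i = k then 2 * e * h k * m k else 0) := by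
      intro i
      by_cases hik : i = k
      · subst hik
        simp only [s', Function.update_self, if_true, hsgn]
        ring
      · simp only [s', Function.update_of_ne hik, if_neg hik, sub_zero]
    rw [Finset.sum_congr rfl (fun i _ => this i), Finset.sum_sub_distrib,
      Finset.sum_ite_eq' Finset.univ k, if_pos (Finset.mem_univ k)]
  have h3 : f s' ≤ f s := hs s'
  have h4 : f s' = ‖y - (2 * e * h k) • v k‖ ^ 2 - 2 * (T - 2 * e * h k * m k) := by
    simp only [f]
    rw [h1, h2]
  have h5 : f s = ‖y‖ ^ 2 - 2 * T := rfl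
  have h6 : ‖y - (2 * e * h k) • v k‖ ^ 2
      = ‖y‖ ^ 2 - 2 * (2 * e * h k) * inner ℝ (v k) y + (2 * e * h k) ^ 2 := by
    rw [norm_sub_sq_real, inner_smul_right, norm_smul, hv k, real_inner_comm, Real.norm_eq_abs,
      mul_one, sq_abs]
    ring
  rw [h4, h5, h6] at h3
  have h7 : h k * h k ≤ h k * (e * (inner ℝ (v k) y - m k)) := by
    have : (2 * e * h k) ^ 2 = 4 * (e * e) * (h k * h k) := by ring
    rw [this, he2] at h3
    nlinarith
  rcases (hh k).eq_or_lt with h0 | h0
  · rw [← h0]
    exact abs_nonneg _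
  · have h8 : h k ≤ e * (inner ℝ (v k) y - m k) := le_of_mul_le_mul_left h7 h0
    refine h8.trans ?_
    rcases hsg (s k) with h9 | h9
    · rw [he, h9, one_mul]
      exact le_abs_self _
    · rw [he, h9, neg_one_mul]
      exact neg_le_abs _

end Vale.Agent.P243
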