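import Mathlib

/-!
# Covering a set of reals by open intervals of almost optimal total length
-/

namespace Vale.Agent.P243

open MeasureTheory Set
open scoped ENNReal

private theorem volume_eq_iInf_length (S : Set ℝ) :
    volume S = ⨅ (t : ℕ → Set ℝ) (_ : S ⊆ ⋃ n, t n), ∑' n, StieltjesFunction.id.length (t n) := by
  rw [Real.volume_eq_stieltjes_id, StieltjesFunction.measure]
  change StieltjesFunction.id.outer S = _
  rw [StieltjesFunction.outer, OuterMeasure.ofFunction_apply]

private theorem exists_Ioo_of_length (T : Set ℝ) (hT : StieltjesFunction.id.length T ≠ ⊤)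
    (δ : NNReal) (hδ : 0 < δ) :
    ∃ a b : ℝ, a ≤ b ∧ T ⊆ Ioo a b ∧
      ENNReal.ofReal (b - a) ≤ StieltjesFunction.id.length T + δ := by
  have hδ2 : ((δ / 2 : NNReal) : ℝ≥0∞) ≠ 0 := by
    have : 0 < δ / 2 := by positivity
    exact_mod_cast this.ne'
  have hlt : StieltjesFunction.id.length T < StieltjesFunction.id.length T + ((δ / 2 : NNReal) : ℝ≥0∞) :=
    ENNReal.lt_add_right hT hδ2
  nth_rewrite 1 [StieltjesFunction.length_eq] at hlt
  simp only [iInf_lt_iff] at hlt
  obtain ⟨a, b, hsub, hab⟩ := hlt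
  have hbot : (botSet : Set ℝ) = ∅ := by
    ext x
    simp only [botSet, mem_empty_iff_false, iff_false]
    exact not_isBot x
  rw [hbot, sdiff_empty] at hsub
  have hδr : (0 : ℝ) < (δ : ℝ) / 2 := by
    have : (0 : ℝ) < δ := by exact_mod_cast hδ
    positivity
  refine ⟨a, max a b + (δ : ℝ) / 2, ?_, ?_, ?_⟩
  · have := le_max_left a b
    linarith
  · intro x hx
    have := hsub hx
    refine ⟨this.1, ?_⟩
    have h2 := le_max_right a b
    linarith [this.2]
  · have h1 : max a b + (δ : ℝ) / 2 - a = max (b - a) 0 + (δ : ℝ) / 2 := by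
      rcases le_total a b with h | h
      · rw [max_eq_right h, max_eq_left (by linarith)]; ring
      · rw [max_eq_left h, max_eq_right (by linarith)]; ring
    have h2 : ENNReal.ofReal (max (b - a) 0) = ENNReal.ofReal (b - a) := by
      rcases le_total 0 (b - a) with h | h
      · rw [max_eq_left h]
      · rw [max_eq_right h, ENNReal.ofReal_of_nonpos h, ENNReal.ofReal_zero]
    have h3 : ENNReal.ofReal ((δ : ℝ) / 2) = ((δ / 2 : NNReal) : ℝ≥0∞) := by
      rw [ENNReal.ofReal]
      congr 1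
      ext
      simp [Real.coe_toNNReal _ hδr.le]
    have h4 : ((δ / 2 : NNReal) : ℝ≥0∞) + ((δ / 2 : NNReal) : ℝ≥0∞) = (δ : ℝ≥0∞) := by
      rw [← ENNReal.coe_add, add_halves]
    have hab' : ENNReal.ofReal (b - a)
        ≤ StieltjesFunction.id.length T + ((δ / 2 : NNReal) : ℝ≥0∞) := by
      simpa using hab.le
    calc ENNReal.ofReal (max a b + (δ : ℝ) / 2 - a)
        = ENNReal.ofReal (max (b - a) 0 + (δ : ℝ) / 2) := by rw [h1]
      _ ≤ ENNReal.ofReal (max (b - a) 0) + ENNReal.ofReal ((δ : ℝ) / 2) := ENNReal.ofReal_add_le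
      _ = ENNReal.ofReal (b - a) + ((δ / 2 : NNReal) : ℝ≥0∞) := by rw [h2, h3]
      _ ≤ StieltjesFunction.id.length T + ((δ / 2 : NNReal) : ℝ≥0∞)
            + ((δ / 2 : NNReal) : ℝ≥0∞) := by gcongr
      _ = StieltjesFunction.id.length T + δ := by rw [add_assoc, h4]

/-- Lebesgue outer measure on the line is computed by countable covers by open intervals. -/
theorem exists_cover_Ioo (S : Set ℝ) (ε : ℝ≥0∞) (hε : ε ≠ 0) :
    ∃ a b : ℕ → ℝ, (∀ n, a n ≤ b n) ∧ S ⊆ ⋃ n, Ioo (a n) (b n) ∧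
      ∑' n, ENNReal.ofReal (b n - a n) ≤ volume S + ε := by
  by_cases htop : volume S = ⊤
  · refine ⟨fun n => -(n : ℝ), fun n => (n : ℝ), fun n => ?_, ?_, ?_⟩
    · have : (0 : ℝ) ≤ n := Nat.cast_nonneg n
      linarith
    · intro x _
      obtain ⟨n, hn⟩ := exists_nat_gt |x|
      refine mem_iUnion.2 ⟨n, ?_⟩
      have := abs_lt.1 hn
      exact ⟨this.1, this.2⟩
    · rw [htop, top_add]
      exact le_top
  · have hε2 : ε / 2 ≠ 0 := by
      simp [ENNReal.div_eq_zero_iff, hε]
    have hlt : volume S < volume S + ε / 2 := ENNReal.lt_add_right htop hε2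
    nth_rewrite 1 [volume_eq_iInf_length] at hlt
    simp only [iInf_lt_iff] at hlt
    obtain ⟨t, ht, hsum⟩ := hlt
    obtain ⟨δ, hδpos, hδsum⟩ := ENNReal.exists_pos_sum_of_countable hε2 ℕ
    have hfin : ∀ n, StieltjesFunction.id.length (t n) ≠ ⊤ :=
      ENNReal.ne_top_of_tsum_ne_top (ne_top_of_lt hsum)
    choose a b hab hsub hlen using fun n => exists_Ioo_of_length (t n) (hfin n) (δ n) (hδpos n)
    refine ⟨a, b, hab, ?_, ?_⟩
    · exact ht.trans (iUnion_mono hsub)
    · calc ∑' n, ENNReal.ofReal (b n - a n)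
          ≤ ∑' n, (StieltjesFunction.id.length (t n) + δ n) := ENNReal.tsum_le_tsum hlen
        _ = ∑' n, StieltjesFunction.id.length (t n) + ∑' n, (δ n : ℝ≥0∞) := ENNReal.tsum_add
        _ ≤ (volume S + ε / 2) + ε / 2 := add_le_add hsum.le hδsum.le
        _ = volume S + ε := by rw [add_assoc, ENNReal.add_halves]

end Vale.Agent.P243
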