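import Vale.Agent.P243.Plank.Bang
import Vale.Agent.P243.Plank.CoverIoo

/-!
# The plank theorem for generalised planks with arbitrary bases
-/

namespace Vale.Agent.P243

open MeasureTheory Set
open scoped ENNReal

/-- Plank theorem for generalised planks `{x | ⟪v i, x⟫ ∈ S i}` with arbitrary bases `S i ⊆ ℝ`:
the total (outer) length of the bases is at least the minimal width of the covered compact convex
set. -/
theorem plank_sets {E : Type*} [NormedAddCommGroup E] [InnerProductSpace ℝ E]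
    [FiniteDimensional ℝ E] {ι : Type*} [Fintype ι] (C : Set E) (hC : IsCompact C)
    (hCc : Convex ℝ C) (hCn : C.Nonempty) (w : ℝ)
    (hw : ∀ v : E, ‖v‖ = 1 → ∃ a ∈ C, ∃ b ∈ C, w ≤ inner ℝ v (a - b))
    (v : ι → E) (hv : ∀ i, ‖v i‖ = 1) (S : ι → Set ℝ)
    (hcov : ∀ x ∈ C, ∃ i, inner ℝ (v i) x ∈ S i) :
    ENNReal.ofReal w ≤ ∑ i, volume (S i) := by
  classical
  obtain ⟨x0, hx0⟩ := hCn
  obtain ⟨i0, _⟩ := hcov x0 hx0
  have hcard : Fintype.card ι ≠ 0 := (Fintype.card_pos_iff.mpr ⟨i0⟩).ne'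
  apply ENNReal.le_of_forall_pos_le_add
  intro ε hε _
  have hcard' : ((Fintype.card ι : ℕ) : ℝ≥0∞) ≠ 0 := by exact_mod_cast hcard
  have hcardtop : ((Fintype.card ι : ℕ) : ℝ≥0∞) ≠ ∞ := ENNReal.natCast_ne_top _
  have hδ0 : (ε : ℝ≥0∞) / (Fintype.card ι : ℕ) ≠ 0 := by
    apply ENNReal.div_ne_zero.mpr
    exact ⟨by exact_mod_cast hε.ne', hcardtop⟩
  choose a b hab hS hsum using
    fun i => exists_cover_Ioo (S i) ((ε : ℝ≥0∞) / (Fintype.card ι : ℕ)) hδ0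
  let U : ι × ℕ → Set E := fun p => {x | inner ℝ (v p.1) x ∈ Ioo (a p.1 p.2) (b p.1 p.2)}
  have hUo : ∀ p, IsOpen (U p) := fun p =>
    isOpen_Ioo.preimage (by fun_prop : Continuous fun x : E => inner ℝ (v p.1) x)
  have hCU : C ⊆ ⋃ p, U p := by
    intro x hx
    obtain ⟨i, hi⟩ := hcov x hx
    obtain ⟨n, hn⟩ := mem_iUnion.mp (hS i hi)
    exact mem_iUnion.mpr ⟨(i, n), hn⟩
  obtain ⟨T, hT⟩ := hC.elim_finite_subcover U hUo hCU
  have hb := bang_plank (ι := T) C hC hCc ⟨x0, hx0⟩ w hw (fun p => v p.1.1) (fun p => hv _)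
    (fun p => (a p.1.1 p.1.2 + b p.1.1 p.1.2) / 2) (fun p => (b p.1.1 p.1.2 - a p.1.1 p.1.2) / 2)
    (fun p => by
      have := hab p.1.1 p.1.2
      linarith)
    (by
      intro x hx
      obtain ⟨p, hp⟩ := mem_iUnion.mp (hT hx)
      obtain ⟨hpT, hxp⟩ := mem_iUnion.mp hp
      refine ⟨⟨p, hpT⟩, ?_⟩
      have h1 : a p.1 p.2 < inner ℝ (v p.1) x := hxp.1
      have h2 : inner ℝ (v p.1) x < b p.1 p.2 := hxp.2
      exact abs_le.mpr ⟨by linarith, by linarith⟩)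
  have hb2 : w ≤ ∑ p ∈ T, (b p.1 p.2 - a p.1 p.2) := by
    refine hb.trans (le_of_eq ?_)
    rw [← Finset.sum_coe_sort T (fun p => b p.1 p.2 - a p.1 p.2)]
    refine Finset.sum_congr rfl fun p _ => ?_
    ring
  calc ENNReal.ofReal w ≤ ENNReal.ofReal (∑ p ∈ T, (b p.1 p.2 - a p.1 p.2)) :=
        ENNReal.ofReal_le_ofReal hb2
    _ = ∑ p ∈ T, ENNReal.ofReal (b p.1 p.2 - a p.1 p.2) :=
        ENNReal.ofReal_sum_of_nonneg fun p _ => by
          have := hab p.1 p.2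
          linarith
    _ ≤ ∑' p : ι × ℕ, ENNReal.ofReal (b p.1 p.2 - a p.1 p.2) := ENNReal.sum_le_tsum T
    _ = ∑' (i : ι) (n : ℕ), ENNReal.ofReal (b i n - a i n) :=
        ENNReal.tsum_prod (f := fun i n => ENNReal.ofReal (b i n - a i n))
    _ = ∑ i, ∑' n : ℕ, ENNReal.ofReal (b i n - a i n) := tsum_fintype _
    _ ≤ ∑ i, (volume (S i) + (ε : ℝ≥0∞) / (Fintype.card ι : ℕ)) :=
        Finset.sum_le_sum fun i _ => hsum i
    _ = ∑ i, volume (S i) + ε := by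
        rw [Finset.sum_add_distrib, Finset.sum_const, Finset.card_univ, nsmul_eq_mul,
          ENNReal.mul_div_cancel hcard' hcardtop]

end Vale.Agent.P243
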